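import Vale.Agent.Lib.P154.SF.Prog

/-! Generated certificates. -/

namespace Vale.Agent.Lib.P154

namespace SF

open Tr in
theorem tc6 : chk TK6c [] (s0 (s0 (s0 (s1 l l) (s1 (s2 l l) l)) (s1 (s0 (s1 l l) (s1 (s2 l l) l)) (s0 (s2 l l) (s1 l l)))) (s0 (s1 (s1 (s2 l (s0 l l)) (s0 l l)) (s1 (s0 l l) (s1 l l))) (s1 (s1 (s0 (s2 l l) l) (s1 l l)) (s1 (s1 l l) (s2 l l)))))
    (Bx.mk 281474993487872 16777216 281475186425856 25165824 281475066757120 30015488 281474976710656 0) = true := by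
  decide +kernel

open Tr in
theorem tc7 : chk TK6c [] (s1 (s0 (s0 (s1 l l) (s1 l l)) (s0 (s1 (s2 l l) (s1 l l)) (s1 (s1 l l) (s1 l l)))) (s0 (s0 (s1 l l) (s1 (s2 l l) (s1 l l))) (s0 (s1 (s1 l l) (s0 l l)) (s0 (s1 l l) (s1 l l)))))
    (Bx.mk 281474993487872 16777216 281475261923328 50331648 281475006726144 30015488 281474976710656 0) = true := by
  decide +kernel

open Tr in
theorem tc8 : chk TK6c [] (s1 (s0 (s0 (s1 (s0 l l) (s0 l l)) (s1 (s0 (s2 l l) (s2 l l)) (s0 l l))) (s0 (s1 (s0 (s2 l l) (s2 l l)) (s0 l l)) (s1 (s1 l l) (s1 l l)))) (s0 (s0 (s0 (s1 l l) (s1 l l)) (s1 (s0 l l) (s0 l l))) (s0 (s1 (s0 l l) (s0 l l)) (s1 (s0 l l) (s0 l l)))))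
    (Bx.mk 281474993487872 16777216 281475261923328 50331648 281475066757120 30015488 281474976710656 0) = true := by
  decide +kernel

open Tr in
theorem tc9 : chk TK6c [] (s2 (s1 (s0 (s0 l (s1 l l)) (s0 (s0 l l) (s0 l l))) (s0 (s0 l (s0 l l)) (s0 (s0 l l) (s0 l l)))) (s1 (s0 (s0 l (s1 l l)) (s0 (s0 l l) (s0 l l))) (s0 (s0 (s1 l l) (s0 l l)) (s0 (s0 l l) (s0 l l)))))
    (Bx.mk 281474993487872 16777216 281475337420800 25165824 281475006726144 30015488 281474976710656 0) = true := by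
  decide +kernel

open Tr in
theorem tc10 : chk TK6c [] (s1 (s0 (s0 (s1 l l) (s0 l l)) (s2 (s0 (s0 l l) (s0 l l)) (s0 (s0 l l) (s0 l l)))) (s0 (s0 (s1 l l) (s0 l l)) (s2 (s1 (s0 (s0 l l) (s0 l l)) (s0 (s0 l l) (s0 l l))) (s1 (s0 (s0 l l) (s0 l l)) (s0 (s0 l l) (s0 l l))))))
    (Bx.mk 281474993487872 16777216 281475387752448 25165824 281474991718400 15007744 281474976710656 0) = true := by
  decide +kernel

open Tr in
theorem tc11 : chk TK6c [] (s1 (s0 (s0 (s0 l l) (s0 l l)) (s2 (s0 (s0 l l) (s0 l l)) (s1 (s0 (s1 l l) (s1 l l)) (s0 (s1 l l) (s0 l l))))) (s0 (s0 (s0 l l) (s0 l l)) (s2 (s1 (s0 (s0 l l) (s0 l l)) (s0 (s0 l l) (s0 l l))) (s1 (s0 (s0 l l) (s0 l l)) (s0 (s0 l l) (s0 l l))))))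
    (Bx.mk 281474993487872 16777216 281475387752448 25165824 281475021733888 15007744 281474976710656 0) = true := by
  decide +kernel

end SF

end Vale.Agent.Lib.P154
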