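import Vale.Agent.Lib.P154.SF.Prog

/-! Generated certificates. -/

namespace Vale.Agent.Lib.P154

namespace SF

open Tr in
theorem tc71 : chk TK6f gsf (s0 (s1 (s0 (s1 (s0 l l) (s0 l l)) (s1 (s0 l l) (s0 l l))) (s0 (s1 (s0 l l) (s0 l (s2 l l))) (s1 (s2 l (s0 l l)) (s2 l (s0 l (s2 l l)))))) (s1 (s0 (s1 (s0 l l) (s2 l (s0 l l))) (s1 (s2 l (s0 l l)) (s2 l (s0 l l)))) (s0 (s1 (s2 l (s0 l (s2 l l))) (s2 l (s0 (s1 l l) (s1 l l)))) (s1 (s2 l (s2 l (s0 l l))) (s2 l (s0 (s1 l l) (s1 l l)))))))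
    (Bx.mk 281475243048960 2097152 281475180134400 2097152 281475081764864 15007744 281474976710656 0) = true := by
  decide +kernel

open Tr in
theorem tc72 : chk TK6f gsf (s1 (s0 (s1 (s2 l (s0 l l)) (s2 l (s0 l (s1 l l)))) (s1 (s2 l (s0 (s1 l l) (s1 l l))) (s2 l (s0 (s1 l l) (s1 l l))))) (s0 (s1 (s2 l (s0 (s1 l l) (s1 l l))) (s2 l (s0 (s1 l l) (s1 l l)))) (s1 (s2 l (s0 (s1 l l) (s1 l l))) (s2 l (s0 (s1 l l) (s1 l l))))))
    (Bx.mk 281475242000384 1048576 281475184328704 2097152 281475081764864 15007744 281474976710656 0) = true := by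
  decide +kernel

open Tr in
theorem tc73 : chk TK6f gsf (s1 (s0 (s1 (s2 l (s0 (s1 l l) (s1 l l))) (s2 l (s0 (s1 l l) (s1 l l)))) (s1 (s2 l (s0 (s1 l l) (s1 l l))) (s2 l (s0 (s1 l l) (s1 l l))))) (s0 (s1 (s2 l (s0 (s1 l l) (s1 l l))) (s2 l (s0 (s1 l l) (s1 l l)))) (s1 (s2 l (s0 (s1 l l) (s1 l l))) (s2 l (s0 (s1 l l) (s1 l l))))))
    (Bx.mk 281475244097536 1048576 281475184328704 2097152 281475081764864 15007744 281474976710656 0) = true := by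
  decide +kernel

open Tr in
theorem tc74 : chk TK6f gsf (s0 (s1 (s0 (s1 (s0 l l) (s0 l l)) (s1 (s0 l l) (s0 l l))) (s0 (s1 (s0 l l) (s0 l l)) (s1 (s0 l l) (s0 l l)))) (s1 (s0 (s1 (s0 l l) (s0 l (s2 l l))) (s1 (s2 l (s0 (s1 l l) (s1 l l))) (s2 l (s0 (s1 l l) (s1 l l))))) (s0 (s1 (s2 l (s0 l (s1 l l))) (s2 l (s0 (s2 l l) (s1 l l)))) (s1 (s2 l (s0 (s1 l l) (s1 l l))) (s2 l (s0 (s1 l l) (s1 l l)))))))
    (Bx.mk 281475238854656 2097152 281475188523008 2097152 281475081764864 15007744 281474976710656 0) = true := by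
  decide +kernel

open Tr in
theorem tc75 : chk TK6f gsf (s1 (s0 (s1 (s0 l l) (s0 l l)) (s1 (s0 l (s2 l l)) (s0 l (s1 l l)))) (s0 (s1 (s0 l l) (s0 l l)) (s1 (s2 l (s0 l (s1 l l))) (s2 l (s0 (s1 l l) (s1 l l))))))
    (Bx.mk 281475237806080 1048576 281475192717312 2097152 281475081764864 15007744 281474976710656 0) = true := by
  decide +kernel

open Tr in
theorem tc76 : chk TK6f gsf (s1 (s0 (s1 (s2 l (s0 (s1 l l) (s1 l l))) (s2 l (s0 (s1 l l) (s1 l l)))) (s1 (s2 l (s0 (s1 l l) (s1 l l))) (s0 (s1 l l) (s1 l l)))) (s0 (s1 (s0 (s1 l l) (s1 l l)) (s0 (s1 l l) (s1 l l))) (s1 (s0 (s1 l l) (s2 l (s1 l l))) (s0 (s1 l l) (s2 l (s2 l (s1 l (s0 l l))))))))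
    (Bx.mk 281475239903232 1048576 281475192717312 2097152 281475081764864 15007744 281474976710656 0) = true := by
  decide +kernel

end SF

end Vale.Agent.Lib.P154
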