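import Vale.Agent.Lib.P154.SF.Prog

/-! Generated certificates. -/

namespace Vale.Agent.Lib.P154

namespace SF

open Tr in
theorem tc83 : chk TK6f gsf (s1 (s0 (s2 l (s1 (s2 l (s0 l l)) (s2 l (s2 l (s0 l (s1 l l)))))) (s2 l (s1 (s2 l (s2 l (s0 (s2 l l) (s1 l l)))) (s2 l (s2 l (s0 (s1 l l) (s1 l l))))))) (s0 (s2 l (s1 (s2 l (s2 l (s0 (s1 l l) (s1 l l)))) (s2 l (s2 l (s0 (s1 l l) (s1 l l)))))) (s2 l (s1 (s2 l (s2 l (s0 (s1 l l) (s1 l l)))) (s2 l (s2 l (s0 (s1 l l) (s1 l l))))))))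
    (Bx.mk 281475243573248 524288 281475193765888 1048576 281475081764864 15007744 281474976710656 0) = true := by
  decide +kernel

open Tr in
theorem tc84 : chk TK6f gsf (s1 (s0 (s2 l (s1 (s2 l (s2 l (s0 (s1 l l) (s1 l l)))) (s2 l (s2 l (s0 (s1 l l) (s1 l l)))))) (s2 l (s1 (s2 l (s2 l (s0 (s1 l l) (s1 l l)))) (s2 l (s2 l (s0 (s1 l l) (s1 l l))))))) (s0 (s2 l (s1 (s2 l (s2 l (s0 (s1 l l) (s1 l l)))) (s2 l (s0 (s1 l l) (s1 l l))))) (s2 l (s1 (s2 l (s2 l (s0 (s1 l l) (s1 l l)))) (s2 l (s0 (s1 l l) (s1 l l)))))))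
    (Bx.mk 281475244621824 524288 281475193765888 1048576 281475081764864 15007744 281474976710656 0) = true := by
  decide +kernel

open Tr in
theorem tc85 : chk TK6f gsf (d 1)
    (Bx.mk 281475232563200 4194304 281475203203072 8388608 281475081764864 15007744 281474976710656 0) = true := by
  decide +kernel

open Tr in
theorem tc86 : chk TK6f gsf (s1 (s0 (s0 (d 1) (s1 (s1 (s0 l l) (d 1)) (d 1))) (s0 (s1 (s0 (s1 l l) (s1 l l)) (d 1)) (s1 (s0 (s2 l (s1 l l)) (s2 l (s1 (s0 l l) (s0 l l)))) (s0 (d 1) (s1 (s1 l (d 1)) (d 1)))))) (d 1))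
    (Bx.mk 281475238854656 2097152 281475196911616 2097152 281475081764864 15007744 281474976710656 0) = true := by
  decide +kernel

open Tr in
theorem tc87 : chk TK6f gsf (s1 (s0 (s2 l (s1 (s0 l l) (s0 l l))) (s2 l (s1 (s0 l l) (s0 l l)))) (s0 (s1 (s0 l l) (d 1)) (s2 l (s1 (s0 l l) (s0 (d 1) (s1 l (d 1)))))))
    (Bx.mk 281475241476096 524288 281475195863040 1048576 281475081764864 15007744 281474976710656 0) = true := by
  decide +kernel

open Tr in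
theorem tc88 : chk TK6f gsf (s1 (s0 (s2 l (s1 (s0 l (s2 l l)) (s2 l (s0 l (s1 l l))))) (s2 l (s1 (s2 l (s2 l (s0 (s1 l l) (s1 l l)))) (s2 l (s2 l (s0 (s1 l l) (s1 l l))))))) (s0 (s1 (s2 l (s2 l (s2 l (s0 l (s1 l l))))) (s2 l (s2 l (s2 l (s0 (s1 l (d 1)) (s1 l l)))))) (s1 (s2 l (s2 l (s0 (s1 l l) (s1 l l)))) (s2 l (s2 l (s0 (s1 l l) (s1 l l)))))))
    (Bx.mk 281475242524672 524288 281475195863040 1048576 281475081764864 15007744 281474976710656 0) = true := by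
  decide +kernel

end SF

end Vale.Agent.Lib.P154
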