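import Vale.Agent.Lib.P154.SF.Prog

/-! Generated certificates. -/

namespace Vale.Agent.Lib.P154

namespace SF

open Tr in
theorem tc95 : chk TK6f gsf (d 1)
    (Bx.mk 281475211591680 33554432 281475228368896 16777216 281475036741632 60030976 281474976710656 0) = true := by
  decide +kernel

end SF

end Vale.Agent.Lib.P154
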