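import Vale.Agent.Lib.P154.SF.Prog

/-! Generated certificates. -/

namespace Vale.Agent.Lib.P154

namespace SF

open Tr in
theorem tc102 : chk TKAu gsA (s1 (s0 (s1 (s0 (s1 l l) (s1 (s0 l l) (s0 l l))) (s0 (s1 l l) (s1 (s0 l l) (s0 l l)))) (s1 (s0 (s1 (s0 l (d 0)) (s0 l (d 0))) (d 0)) (s0 (s1 (s0 l (d 0)) (s0 l (d 0))) (d 0)))) (s0 (s1 (s0 (s1 (s0 l l) (s0 l l)) (s1 (s0 l l) (s0 l l))) (s0 (s1 (s0 l l) (s0 l l)) (s1 (s0 l l) (s0 l l)))) (s1 (s0 (s1 (s0 l (d 0)) (s0 l (d 0))) (d 0)) (s0 (s1 (s0 l (d 0)) (s0 l (d 0))) (d 0)))))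
    (Bx.mk 281474989293568 12582912 281475438084096 25165824 281474976710656 0 281474976710656 0) = true := by
  decide +kernel

open Tr in
theorem tc103 : chk TKAu gsA (s1 (s0 (s1 (s0 (s1 (s0 l l) (s0 l l)) (s1 (s0 l l) (s0 l l))) (s0 (s1 (s0 l l) (s0 l l)) (s1 (s0 l l) (s0 l l)))) (s1 (s0 (s1 (s0 l (d 0)) (s0 l (d 0))) (d 0)) (s0 (s1 (s0 l (d 0)) (s0 l (d 0))) (d 0)))) (s0 (s1 (s0 (s1 (s0 l l) (s0 l l)) (s1 (s0 l l) (s0 l l))) (s0 (s1 (s0 l l) (s0 l l)) (s1 (s0 l l) (s0 l l)))) (s1 (s0 (s1 (s0 l (d 0)) (s0 l (d 0))) (d 0)) (s0 (s1 (s0 l (d 0)) (s0 l (d 0))) (d 0)))))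
    (Bx.mk 281474989293568 12582912 281475488415744 25165824 281474976710656 0 281474976710656 0) = true := by
  decide +kernel

end SF

end Vale.Agent.Lib.P154
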