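import Vale.Agent.Lib.P154.SF.Prog

/-! Generated certificates. -/

namespace Vale.Agent.Lib.P154

namespace SF

open Tr in
theorem tc104 : chk TKBu gsA (s1 (s0 (s1 (s0 (s1 l l) (s1 (s0 l l) (s0 l l))) (s0 (s1 l l) (s1 (s0 l l) (s0 l l)))) (s1 (s0 (s1 (s0 l l) (s0 l l)) (s1 (s0 l l) (s0 l l))) (s0 (s1 (s0 l l) (s0 l l)) (s1 (s0 l l) (s0 l l))))) (s0 (s1 (s0 l (s1 l l)) (s0 l (s1 l l))) (s1 (s0 (s1 (s0 l l) (s0 l l)) (s1 (s0 l l) (s0 l l))) (s0 (s1 (s0 l l) (s0 l l)) (s1 (s0 l l) (s0 l l))))))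
    (Bx.mk 281474979856384 3145728 281475117219840 6291456 281474976710656 0 281474976710656 0) = true := by
  decide +kernel

open Tr in
theorem tc105 : chk TKBu gsA (s0 (s1 (s0 (s1 (s0 l l) (s0 l l)) (s1 (s0 l l) (s0 l l))) (s0 (s1 (s0 l l) (s0 l l)) (s1 (s0 l l) (s0 l l)))) (s1 (s0 (s1 (s0 l l) (s0 l l)) (s1 (s0 l l) (s0 l l))) (s0 (s1 (s0 l l) (s0 l l)) (s1 (s0 l l) (s0 l l)))))
    (Bx.mk 281474986147840 3145728 281475114074112 3145728 281474976710656 0 281474976710656 0) = true := by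
  decide +kernel

open Tr in
theorem tc106 : chk TKBu gsA (s0 (s1 (s0 (s1 (s0 l l) (s0 l l)) (s1 (s0 l l) (s0 l l))) (s0 (s1 (s0 l l) (s0 l l)) (s1 (s0 l l) (s0 l l)))) (s1 (s0 (s1 (s0 l l) (s0 l l)) (s1 (s0 l l) (s0 l l))) (s0 (s1 (s0 l l) (s0 l l)) (s1 (s0 l l) (s0 l l)))))
    (Bx.mk 281474986147840 3145728 281475120365568 3145728 281474976710656 0 281474976710656 0) = true := by
  decide +kernel

open Tr in
theorem tc107 : chk TKBu gsA (s1 (s0 (s1 (s0 l l) (s0 l l)) (s1 (s0 (s1 l l) (s1 (s0 l l) (s0 l l))) (s0 (s1 l l) (s1 (s0 l l) l)))) (s0 (s1 (s0 l l) (s0 l l)) (s1 (s0 l (s1 l l)) (s0 l (s1 l l)))))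
    (Bx.mk 281474979856384 3145728 281475129802752 6291456 281474976710656 0 281474976710656 0) = true := by
  decide +kernel

open Tr in
theorem tc108 : chk TKBu gsA (s1 (s0 (s1 (s0 (s1 (s0 l l) (s0 l l)) (s1 (s0 l l) (s0 l l))) (s0 (s1 (s0 l l) (s0 l l)) (s1 (s0 l l) (s0 l l)))) (s1 (s0 (s1 (s0 l l) (s0 l l)) (s1 (s0 l l) (s0 l l))) (s0 (s1 (s0 l l) (s0 l l)) (s1 (s0 l l) (s0 l l))))) (s0 (s1 (s0 (s1 (s0 l l) l) (s1 (s0 l l) (s0 l l))) (s0 (s1 l l) (s1 l l))) (s1 (s0 (s1 (s0 l l) (s0 l l)) (s1 (s0 l l) (s0 l l))) (s0 (s1 (s0 l l) l) (s1 (s0 l l) (s0 l l))))))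
    (Bx.mk 281474986147840 3145728 281475129802752 6291456 281474976710656 0 281474976710656 0) = true := by
  decide +kernel

open Tr in
theorem tc109 : chk TKBu gsA (s0 (s1 (s0 (s1 (s0 (s1 (s0 l l) (s0 l l)) (s1 (s0 l l) (s0 l l))) (s0 (s1 (s0 l l) (s0 l l)) (s1 (s0 l l) (s0 l l)))) (d 1)) (s0 (s1 (s0 (s1 (s0 l l) (s0 l l)) (s1 (s0 l l) (s0 l l))) (s0 (s1 (s0 l l) (s0 l l)) (s1 (s0 l l) (s0 l l)))) (d 1))) (d 1))
    (Bx.mk 281474995585024 6291456 281475117219840 6291456 281474976710656 0 281474976710656 0) = true := by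
  decide +kernel

end SF

end Vale.Agent.Lib.P154
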