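import Vale.Agent.Lib.P154.SF.Prog

/-! Generated certificates. -/

namespace Vale.Agent.Lib.P154

namespace SF

open Tr in
theorem tc110 : chk TKBu gsA (s0 (s1 (s0 (s1 (s0 (s1 (s0 l l) (s0 l l)) (s1 (s0 l l) (s0 l l))) (s0 (s1 (s0 l l) (s0 l l)) (s1 (s0 l l) (s0 l l)))) (d 1)) (s0 (s1 (s0 (s1 (s0 l l) (s0 l l)) (s1 (s0 l l) (s0 l l))) (s0 (s1 (s0 l l) l) (s1 l l))) (d 1))) (d 1))
    (Bx.mk 281474995585024 6291456 281475129802752 6291456 281474976710656 0 281474976710656 0) = true := by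
  decide +kernel

open Tr in
theorem tc111 : chk TKBu gsA (s0 (s1 (s0 (s1 (s0 l l) (s0 l l)) (s1 (s0 l l) (s0 l l))) (s0 (s1 (s0 l l) (s0 l l)) (s1 (s0 l l) (s0 l l)))) (s1 (s0 (s1 (s0 (s1 l l) (s1 l l)) (s0 l (s1 l l))) (s1 (s0 (s1 l l) (s1 l l)) (s0 (s1 l l) (s1 l l)))) (s0 (s1 (s0 l l) (s0 l l)) (s1 (s0 (s1 l l) (s1 l l)) (s0 l l)))))
    (Bx.mk 281474983002112 6291456 281475142385664 6291456 281474976710656 0 281474976710656 0) = true := by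
  decide +kernel

open Tr in
theorem tc112 : chk TKBu gsA (s0 (s1 (s0 (s1 (s0 l l) (s0 l l)) (s1 (s0 l l) (s0 l l))) (s0 (s1 (s0 l l) (s0 l l)) (s1 (s0 l l) (s0 l l)))) (s1 (s0 (s1 (s0 l l) (s0 l l)) (s1 (s0 l l) (s0 l l))) (s0 (s1 (s0 l l) (s0 l l)) (s1 (s0 l l) (s0 l l)))))
    (Bx.mk 281474983002112 6291456 281475154968576 6291456 281474976710656 0 281474976710656 0) = true := by
  decide +kernel

open Tr in
theorem tc113 : chk TKBu gsA (s1 (s0 (s1 (s0 (s1 (s0 (s1 l l) (s1 l l)) (s0 (s1 l l) (s1 l l))) (d 1)) (s0 (s1 (s0 (s1 l l) (s1 l l)) (s0 l l)) (d 1))) (d 1)) (s0 (s1 (s0 (s1 (s0 l l) (s0 l l)) (d 1)) (s0 (s1 (s0 l l) (s0 l l)) (d 1))) (d 1)))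
    (Bx.mk 281474995585024 6291456 281475148677120 12582912 281474976710656 0 281474976710656 0) = true := by
  decide +kernel

open Tr in
theorem tc114 : chk TKBu gsA (s0 (s1 (s0 (s1 (s0 l l) (s0 l l)) (s1 (s0 l l) (s0 l l))) (s0 (s1 (s0 l l) (s0 l l)) (s1 (s0 l l) (s0 l l)))) (s1 (s0 (s1 (s0 l l) (s0 l l)) (s1 (s0 l l) (s0 l l))) (s0 (s1 (s0 l l) (s0 l l)) (s1 (s0 l l) (s0 l l)))))
    (Bx.mk 281474983002112 6291456 281475167551488 6291456 281474976710656 0 281474976710656 0) = true := by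
  decide +kernel

open Tr in
theorem tc115 : chk TKBu gsA (s0 (s1 (s0 (s1 (s0 l l) (s0 l l)) (s1 (s0 l l) (s0 l l))) (s0 (s1 (s0 l l) (s0 l l)) (s1 (s0 l l) (s0 l l)))) (s1 (s0 (s1 (s0 l l) (s0 l l)) (s1 (s0 l l) (s0 l l))) (s0 (s1 (s0 l l) (s0 l l)) (s1 (s0 l l) (s0 l l)))))
    (Bx.mk 281474983002112 6291456 281475180134400 6291456 281474976710656 0 281474976710656 0) = true := by
  decide +kernel

end SF

end Vale.Agent.Lib.P154
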