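import Vale.Agent.Lib.P154.SF.Prog

/-! Generated certificates. -/

namespace Vale.Agent.Lib.P154

namespace SF

open Tr in
theorem tc116 : chk TKBu gsA (s1 (s0 (s1 (s0 (s1 (s0 l l) (s0 l l)) (d 1)) (s0 (s1 (s0 l l) (s0 l l)) (d 1))) (d 1)) (s0 (s1 (s0 (s1 (s0 l l) (s0 l l)) (d 1)) (s0 (s1 (s0 l l) (s0 l l)) (d 1))) (d 1)))
    (Bx.mk 281474995585024 6291456 281475173842944 12582912 281474976710656 0 281474976710656 0) = true := by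
  decide +kernel

open Tr in
theorem tc117 : chk TKBu gsA (s0 (s1 (s0 (s1 (s0 l l) (s0 l l)) (s1 (s0 l l) (s0 l l))) (s0 (s1 (s0 l l) (s0 l l)) (s1 (s0 l l) (s0 l l)))) (s1 (s0 (s1 (s0 l l) (s0 l l)) (s1 (s0 l l) (s0 l l))) (s0 (s1 (s0 l l) (s0 l l)) (s1 (s0 l l) (s0 l l)))))
    (Bx.mk 281474983002112 6291456 281475192717312 6291456 281474976710656 0 281474976710656 0) = true := by
  decide +kernel

open Tr in
theorem tc118 : chk TKBu gsA (s0 (s1 (s0 (s1 (s0 l l) (s0 l l)) (s1 (s0 l l) (s0 l l))) (s0 (s1 (s0 l l) (s0 l l)) (s1 (s0 l l) (s0 l l)))) (s1 (s0 (s1 (s0 l l) (s0 l l)) (s1 (s0 l l) (s0 l l))) (s0 (s1 (s0 l l) (s0 l l)) (s1 (s0 l l) (s0 l l)))))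
    (Bx.mk 281474983002112 6291456 281475205300224 6291456 281474976710656 0 281474976710656 0) = true := by
  decide +kernel

open Tr in
theorem tc119 : chk TKBu gsA (s1 (s0 (s1 (s0 (s1 (s0 l l) (s0 l l)) (d 1)) (s0 (s1 (s0 l l) (s0 l l)) (d 1))) (d 1)) (s0 (s1 (s0 (s1 (s0 l l) (s0 l l)) (d 1)) (s0 (s1 (s0 l l) (s0 l l)) (d 1))) (d 1)))
    (Bx.mk 281474995585024 6291456 281475199008768 12582912 281474976710656 0 281474976710656 0) = true := by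
  decide +kernel

open Tr in
theorem tc120 : chk TKBu gsA (s0 (s1 (s0 (s1 (s0 (s1 (s0 l l) l) (s1 (s0 l l) l)) (s0 (s1 l l) (s1 l l))) (s1 (s0 (s1 (s0 l l) (s0 l l)) (s1 (s0 l l) (s0 l l))) (s0 (s1 l l) (s1 (s0 l l) (s0 l l))))) (s0 (s1 (s0 (s1 l l) (s1 l l)) (s0 (s1 l l) (s1 l l))) (s1 (s0 (s1 l l) (s1 l l)) (s0 (s1 l l) (s1 l l))))) (s1 (s0 (s1 (s0 (s1 (s0 l l) (s0 l l)) (d 1)) (s0 (s1 (s0 l l) (s0 l l)) (d 1))) (d 1)) (s0 (s1 (s0 (s1 l l) (d 1)) (s0 (s1 l l) (d 1))) (d 1))))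
    (Bx.mk 281474989293568 12582912 281475224174592 12582912 281474976710656 0 281474976710656 0) = true := by
  decide +kernel

open Tr in
theorem tc121 : chk TKBu gsA (s0 (s1 (s0 (s1 (s0 (s1 l l) (s1 l l)) (s0 l (s1 l l))) (s1 (s0 (s1 l l) (s1 l l)) (s0 (s1 l l) (s1 l l)))) (s0 (s1 (s0 l l) (s0 l l)) (s1 (s0 (s1 l l) (s1 l l)) (s0 (s1 l l) (s1 l l))))) (s1 (s0 (s1 (s0 (s1 l l) (d 1)) (s0 (s1 l l) (d 1))) (d 1)) (s0 (s1 (s0 (s1 l l) (d 1)) (s0 (s1 l l) (d 1))) (d 1))))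
    (Bx.mk 281474989293568 12582912 281475249340416 12582912 281474976710656 0 281474976710656 0) = true := by
  decide +kernel

end SF

end Vale.Agent.Lib.P154
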