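import Vale.Agent.Lib.P154.SF.Prog

/-! Generated certificates. -/

namespace Vale.Agent.Lib.P154

namespace SF

open Tr in
theorem tc144 : chk TKXm gsL (s0 l l)
    (Bx.mk 281474986147840 3145728 281475504144384 3145728 281474976710656 0 281474976710656 0) = true := by
  decide +kernel

open Tr in
theorem tc145 : chk TKXm gsL l
    (Bx.mk 281474984574976 1572864 281475510435840 3145728 281474976710656 0 281474976710656 0) = true := by
  decide +kernel

open Tr in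
theorem tc146 : chk TKXm gsL (s0 l l)
    (Bx.mk 281474987720704 1572864 281475508862976 1572864 281474976710656 0 281474976710656 0) = true := by
  decide +kernel

open Tr in
theorem tc147 : chk TKXm gsL l
    (Bx.mk 281474986934272 786432 281475512008704 1572864 281474976710656 0 281474976710656 0) = true := by
  decide +kernel

open Tr in
theorem tc148 : chk TKXm gsL (s0 l (s1 (s0 l l) (s0 l (s1 (s0 l (s1 (s0 l (s1 (s0 l (s1 (s0 l (d 1)) (s0 l (d 1)))) (s0 l (s1 (s0 l (d 1)) (s0 l (d 1)))))) (s0 l (s1 (s0 l (s1 (s0 l (d 1)) (s0 l (d 1)))) (s0 l (d 1)))))) (s0 l (s1 (s0 l (s1 (s0 l (d 1)) (s0 l (d 1)))) (s0 l (s1 (s0 l (d 1)) (s0 l (d 1))))))))))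
    (Bx.mk 281474988507136 786432 281475511222272 786432 281474976710656 0 281474976710656 0) = true := by
  decide +kernel

open Tr in
theorem tc149 : chk TKXm gsL (s0 l (s1 (s0 l (s1 (s0 l (s1 (s0 l (s1 (s0 l (d 1)) (s0 l (d 1)))) (s0 l (s1 (s0 l (d 1)) (s0 l (d 1)))))) (s0 l (s1 (s0 l (s1 (s0 l (d 1)) (s0 l (d 1)))) (s0 l (s1 (s0 l (d 1)) (s0 l (d 0)))))))) (s0 l (s1 (s0 l (s1 (s0 l (s1 (s0 l (d 0)) (s0 l (d 0)))) (s0 l (s1 (s0 l (d 0)) (s0 l (d 0)))))) (s0 l (s1 (s0 l (s1 (s0 l (d 0)) (s0 (s1 l (s0 l (s1 l (s0 l (d 0))))) (d 0)))) (s0 l (s1 (s0 (s1 (s0 l (s1 (s0 l (d 0)) (s0 l (d 0)))) (s0 l (s1 (s0 l (d 0)) (s0 l (d 0))))) (d 0)) (s0 (s1 (s0 l (s1 (s0 l (d 0)) (s0 l (d 0)))) (s0 l (s1 (s0 l (d 0)) (s0 l (d 0))))) (d 0))))))))))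
    (Bx.mk 281474988507136 786432 281475512795136 786432 281474976710656 0 281474976710656 0) = true := by
  decide +kernel

end SF

end Vale.Agent.Lib.P154
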