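import Vale.Agent.Lib.P154.SF.Prog

/-! Generated certificates. -/

namespace Vale.Agent.Lib.P154

namespace SF

open Tr in
theorem tc150 : chk TKXm gsL (s1 (s0 (s1 (s0 (s1 (s0 (s1 (s0 (s1 (s0 l (d 1)) (s0 l (d 1))) (d 0)) (s0 (s1 (s0 l (d 1)) (s0 l (d 1))) (d 0))) (d 0)) (s0 (s1 (s0 (s1 (s0 l (d 1)) (s0 l (d 1))) (d 0)) (s0 (s1 (s0 l (d 1)) (s0 l (d 1))) (d 0))) (d 0))) (d 0)) (s0 (s1 (s0 (s1 (s0 (s1 (s0 (s1 (s0 l (d 1)) (s0 l (d 1))) (d 0)) (s0 (s1 (s0 l (d 1)) (s0 l (d 1))) (d 0))) (d 0)) (s0 (s1 (s0 (s1 (s0 l (d 1)) (s0 l (d 1))) (d 0)) (s0 (s1 (s0 l (d 1)) (s0 l (d 1))) (d 0))) (d 0))) (d 0)) (s0 (s1 (s0 (s1 (s0 (s1 (s0 l (d 1)) (s0 l (d 1))) (d 0)) (s0 (s1 (s0 l (d 1)) (s0 l (d 1))) (d 0))) (d 0)) (s0 (s1 (s0 (s1 (s0 l (d 1)) (s0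 l (d 1))) (d 0)) (s0 (s1 (s0 l (d 1)) (s0 l (d 1))) (d 0))) (d 0))) (d 0))) (d 0))) (d 0)) (s0 (s1 (s0 (s1 (s0 (s1 (s0 (s1 (s0 (s1 (s0 l (d 1)) (s0 l (d 1))) (d 0)) (s0 (s1 (s0 l (d 1)) (s0 l (d 1))) (d 0))) (d 0)) (s0 (s1 (s0 (s1 (s0 l (d 0)) (s0 (s1 (s0 l (d 1)) (s0 l (d 1))) (d 0))) (d 0)) (s0 (s1 (s0 (s1 (s0 l (d 1)) (s0 l (d 1))) (d 0)) (s0 (s1 (s0 l (d 1)) (s0 l (d 1))) (d 0))) (d 0))) (d 0))) (d 0)) (s0 (s1 (s0 (s1 (s0 (s1 (s0 (s1 (s0 l (d 1)) (s0 l (d 1))) (d 0)) (s0 (s1 (s0 l (d 1)) (s0 l (d 1))) (d 0))) (d 0)) (s0 (s1 (s0 (s1 (s0 l (d 1)) (s0 l (d 1))) (d 0)) (s0 (s1 (s0 l (d 1)) (s0 l (d 1))) (d 0))) (d 0))) (d 0)) (s0 (s1 (s0 (s1 (s0 (s1 (s0 l (d 1)) (s0 l (d 1))) (d 0)) (s0 (s1 (s0 l (d 1)) (s0 l (d 1))) (d 0))) (d 0)) (s0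 (s1 (s0 (s1 (s0 l (d 0)) (d 1)) (d 0)) (d 1)) (d 0))) (d 0))) (d 0))) (d 0)) (s0 (s1 (s0 (s1 (s0 (s1 (s0 (d 1) (d 0)) (d 1)) (d 0)) (s0 (d 1) (d 0))) (d 0)) (s0 (s1 (s0 (d 1) (d 0)) (d 1)) (d 0))) (d 0))) (d 0)))
    (Bx.mk 281474995585024 6291456 281475500998656 12582912 281474976710656 0 281474976710656 0) = true := by
  decide +kernel

end SF

end Vale.Agent.Lib.P154
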