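import Vale.Agent.Lib.P154.SF.Prog

/-! Generated certificates. -/

namespace Vale.Agent.Lib.P154

namespace SF

open Tr in
theorem tc18 : chk TK6c [] (s1 (s0 (s0 (s0 l l) (s0 l l)) (s2 (s1 (s0 (s0 l l) (s0 l l)) (s0 (s0 l l) (s0 l l))) (s1 (s0 (s0 l l) (s0 l l)) (s0 (s0 l l) (s0 l l))))) (s0 (s0 (s0 l l) (s0 l l)) (s2 (s1 (s0 (s0 l l) (s0 l l)) (s0 (s0 l l) (s0 l l))) (s1 (s0 (s0 l l) (s0 l l)) (s0 (s0 l l) (s0 l l))))))
    (Bx.mk 281474993487872 16777216 281475488415744 25165824 281475021733888 15007744 281474976710656 0) = true := by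
  decide +kernel

open Tr in
theorem tc19 : chk TK6c [] (s1 (s0 (s0 (s0 l l) (s0 l l)) (s2 (s1 (s0 (s0 l l) (s0 l l)) (s0 (s0 l l) (s0 l l))) (s1 (s0 (s0 l l) (s0 l l)) (s0 (s0 l l) (s0 l l))))) (s0 (s0 (s0 l l) (s0 l l)) (s2 (s1 (s0 (s0 l l) (s0 l l)) (s0 (s0 l l) (s0 l l))) (s1 (s0 (s0 l l) (s0 l l)) (s0 (s0 l l) (s0 l l))))))
    (Bx.mk 281474993487872 16777216 281475438084096 25165824 281475051749376 15007744 281474976710656 0) = true := by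
  decide +kernel

open Tr in
theorem tc20 : chk TK6c [] (s1 (s0 (s0 (s0 (s1 l l) (s2 l l)) (s0 l l)) (s2 (s1 (s0 (s0 l l) (s0 l l)) (s0 (s0 l l) (s0 l l))) (s1 (s0 (s0 l l) (s0 l l)) (s0 (s0 l l) (s0 l l))))) (s0 (s0 (s0 (s0 l l) (s1 l l)) (s0 l l)) (s2 (s1 (s0 (s0 l l) (s0 l l)) (s0 (s0 l l) (s0 l l))) (s1 (s0 (s0 l l) (s0 l l)) (s0 (s0 l l) (s0 l l))))))
    (Bx.mk 281474993487872 16777216 281475438084096 25165824 281475081764864 15007744 281474976710656 0) = true := by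
  decide +kernel

open Tr in
theorem tc21 : chk TK6c [] (s1 (s0 (s0 (s0 l l) (s0 l l)) (s2 (s1 (s0 (s0 l l) (s0 l l)) (s0 (s0 l l) (s0 l l))) (s1 (s0 (s0 l l) (s0 l l)) (s0 (s0 l l) (s0 l l))))) (s0 (s0 (s0 (s2 l l) l) (s0 l l)) (s2 (s1 (s0 (s0 l l) (s0 l l)) (s0 (s0 l l) (s0 l l))) (s1 (s0 (s0 l l) (s0 l l)) (s0 (s0 l l) (s0 l l))))))
    (Bx.mk 281474993487872 16777216 281475488415744 25165824 281475051749376 15007744 281474976710656 0) = true := by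
  decide +kernel

open Tr in
theorem tc22 : chk TK6c [] (s1 (s0 (s0 (s0 (s0 l l) (s1 l l)) (s0 (s2 l l) l)) (s2 (s1 (s0 (s0 l l) (s0 l l)) (s0 (s0 l l) (s0 l l))) (s1 (s0 (s0 l l) (s0 l l)) (s0 (s0 l l) (s0 l l))))) (s0 (s0 (s0 (s0 l l) (s1 l l)) (s0 (s1 l l) (s2 l l))) (s2 (s1 (s0 (s0 l l) (s0 l l)) (s0 (s0 l l) (s0 l l))) (s1 (s0 (s0 l l) (s0 l l)) (s0 (s0 l l) (s0 l l))))))
    (Bx.mk 281474993487872 16777216 281475488415744 25165824 281475081764864 15007744 281474976710656 0) = true := by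
  decide +kernel

end SF

end Vale.Agent.Lib.P154
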