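import Vale.Agent.Lib.P154.SF.Prog

/-! Generated certificates. -/

namespace Vale.Agent.Lib.P154

namespace SF

open Tr in
theorem tc163 : chk TKCP [] (s0 (s0 (s0 (s0 (s1 (s0 (s1 l l) (s1 l l)) l) (s1 (s0 (s1 l l) (s1 l l)) l)) (s0 (s1 (s0 (s1 l l) (s1 l l)) l) (s1 (s0 (s1 l l) l) l))) (s0 (s0 (s1 l l) (s1 l l)) (s0 (s1 l l) (s1 l l)))) (s0 (s0 (s0 (s1 l l) (s1 l l)) (s0 (s1 l l) (s1 l l))) (s0 (s0 (s1 l l) (s1 l l)) (s0 (s1 l l) (s1 l l)))))
    (Bx.mk 281475185115136 41680896 281475216572416 4456448 281474976710656 0 281474976710656 0) = true := by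
  decide +kernel

open Tr in
theorem tc164 : chk TKCP [] (s0 (s0 (s0 (s0 (s1 l l) (s1 l l)) (s0 (s1 l l) (s1 l l))) (s0 (s0 (s1 l l) (s1 l l)) (s0 (s1 l l) (s1 l l)))) (s0 (s0 (s0 (s1 l l) (s1 l l)) (s0 (s1 l l) l)) (s0 (s0 l l) l)))
    (Bx.mk 281475268476928 41680896 281475216572416 4456448 281474976710656 0 281474976710656 0) = true := by
  decide +kernel

end SF

end Vale.Agent.Lib.P154
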