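import Vale.Agent.Lib.P154.SF.Prog

/-! Generated certificates. -/

namespace Vale.Agent.Lib.P154

namespace SF

open Tr in
theorem tc23 : chk TK6f gsf (s1 (s2 l (s0 l l)) (s0 (d 0) (s1 (s0 (d 0) (s1 (s0 (d 0) (s2 l l)) (d 0))) (d 0))))
    (Bx.mk 281475043819520 67108864 281475110928384 134217728 281475036741632 60030976 281474976710656 0) = true := by
  decide +kernel

open Tr in
theorem tc24 : chk TK6f gsf (s1 (s2 (s0 l (s2 l l)) (s0 l (s2 l l))) (s2 (s0 l (s0 (s1 l l) (s1 l l))) (s0 l (s0 (s1 l l) (s1 l l)))))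
    (Bx.mk 281475144482816 33554432 281475043819520 67108864 281475036741632 60030976 281474976710656 0) = true := by
  decide +kernel

open Tr in
theorem tc25 : chk TK6f gsf (s2 (s0 (s0 l (s1 l l)) (s0 (s1 l (s1 l l)) (s0 (s1 l l) (s1 l l)))) (s0 (s0 l (s1 l l)) (s0 (s1 l (s1 l l)) (s0 (s1 l l) (s1 l l)))))
    (Bx.mk 281475211591680 33554432 281475010265088 33554432 281475036741632 60030976 281474976710656 0) = true := by
  decide +kernel

open Tr in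
theorem tc26 : chk TK6f gsf (s0 (s0 (s1 l (s1 l l)) (s1 (s1 l l) (s1 (s0 l l) (s0 l l)))) (s0 (s1 (s0 (s1 l l) (s1 l l)) (s1 (s0 l l) (s0 (s1 l l) (s1 l l)))) (s0 (s1 (s1 l l) (s1 (s1 l l) (s1 l l))) (s1 (s1 l l) (s1 (s1 l l) (s0 l (s2 l l)))))))
    (Bx.mk 281475211591680 33554432 281475077373952 33554432 281475006726144 30015488 281474976710656 0) = true := by
  decide +kernel

open Tr in
theorem tc27 : chk TK6f gsf (s0 (s0 (s1 l (s1 l l)) (s1 (s1 l l) (s1 (s0 l l) (s0 l l)))) (s0 (s1 (s0 (s1 l l) (s1 l l)) (s0 (s1 l (s1 l l)) (s1 l (s1 l l)))) (s0 (s1 (s1 l l) (s1 (s1 l l) (s1 l (s0 l l)))) (s1 (s1 l l) (s1 (s1 l l) (s0 (s1 l l) (s1 l l)))))))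
    (Bx.mk 281475211591680 33554432 281475077373952 33554432 281475066757120 30015488 281474976710656 0) = true := by
  decide +kernel

open Tr in
theorem tc28 : chk TK6f gsf (s1 (s2 (s0 (s1 (s2 l l) (s1 l (d 0))) (s1 (s0 l (s1 l l)) (s2 (s1 (s0 l (s0 l l)) (s0 (s0 (d 0) l) (s1 l (s0 (d 1) l)))) (s0 (s1 l (s0 (d 0) l)) (s1 (s0 l l) (s1 l (s0 (d 1) l))))))) (s0 (s1 (s2 l l) (s0 (d 0) (s1 l (d 0)))) (s1 (s2 (s0 l (s1 l l)) (s0 l (s1 l l))) (s2 (s0 (s1 l (s0 (d 0) l)) (s1 (s0 l l) (s1 l (s0 (d 1) l)))) (s0 (s1 l (s1 l (d 0))) (s1 (s0 l l) (s1 l (s0 (d 1) l)))))))) (d 1))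
    (Bx.mk 281475144482816 33554432 281475178037248 67108864 281475036741632 60030976 281474976710656 0) = true := by
  decide +kernel

end SF

end Vale.Agent.Lib.P154
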