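import Vale.Agent.Lib.P154.SF.Prog

/-! Generated certificates. -/

namespace Vale.Agent.Lib.P154

namespace SF

open Tr in
theorem tc29 : chk TK6f gsf (s1 (s0 (s1 (s0 l l) (s0 l l)) (s1 (s0 l (s1 l l)) (s0 (s1 l l) (s1 l l)))) (s2 (s0 (s1 (s0 l (s1 l l)) (s0 (s1 l l) (s1 l (s0 l l)))) (s1 (s0 (s1 l l) (s1 (s0 l l) (s0 l l))) (s0 (s1 (s0 l l) (s0 l l)) (s1 (s0 l l) (s0 (s1 l l) (s1 l l)))))) (s0 (s1 (s0 l (s1 l l)) (s0 (s1 l l) (s1 l (s0 l l)))) (s1 (s0 (s1 l l) (s1 (s0 l l) (s0 l l))) (s0 (s1 (s0 l l) (s0 l l)) (s1 (s0 l l) (s0 (s1 l l) (s1 l l))))))))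
    (Bx.mk 281475194814464 16777216 281475144482816 33554432 281475006726144 30015488 281474976710656 0) = true := by
  decide +kernel

open Tr in
theorem tc30 : chk TK6f gsf (s0 (s1 (s0 (s1 l l) (s1 l (s0 l l))) (s0 (s1 (s2 l l) (s0 l l)) (s1 (s0 l l) (s0 l (s1 l l))))) (s0 (s1 (s1 (s0 l l) (s0 l l)) (s1 (s0 l (s1 l l)) (s0 (s1 l l) (s1 l l)))) (s1 (s1 (s0 l l) (s0 l l)) (s1 (s0 (s1 l l) (s1 l l)) (s0 (s1 l l) (s1 l (s0 l l)))))))
    (Bx.mk 281475228368896 16777216 281475127705600 16777216 281475006726144 30015488 281474976710656 0) = true := by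
  decide +kernel

open Tr in
theorem tc31 : chk TK6f gsf (s1 (s0 (s1 (s0 l l) (s0 l (s1 l l))) (s1 (s0 (s1 l l) (s1 l l)) (s0 (s1 l l) (s1 l l)))) (s0 (s1 (s0 (s1 l l) (s1 l l)) (s0 (s1 l l) (s1 l l))) (s1 (s0 (s1 l l) (s1 l (s0 l l))) (s0 (s1 (s0 l l) (s0 l l)) (s1 (s0 l l) (s0 l l))))))
    (Bx.mk 281475219980288 8388608 281475161260032 16777216 281474991718400 15007744 281474976710656 0) = true := by
  decide +kernel

open Tr in
theorem tc32 : chk TK6f gsf (s0 (s1 (s0 (s1 l l) (s1 l l)) (s0 (s1 l (s0 l l)) (s1 (s0 l l) (s0 l l)))) (s1 (s0 (s1 l (s0 l l)) (s1 (s0 l l) (s0 l l))) (s0 (s1 (s0 l l) (s0 l l)) (s1 (s0 l l) (s0 l l)))))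
    (Bx.mk 281475236757504 8388608 281475152871424 8388608 281474991718400 15007744 281474976710656 0) = true := by
  decide +kernel

open Tr in
theorem tc33 : chk TK6f gsf (s0 (s1 (s0 (s1 (s0 l l) (s0 l l)) (s1 (s0 l l) (s0 l l))) (s0 (s1 (s0 l l) (s0 l (s1 l l))) (s1 (s0 l (s1 l l)) (s0 (s1 l l) (s1 l l))))) (s1 (s0 (s1 (s0 l l) (s0 l (s1 l l))) (s1 (s0 l l) (s0 (s1 l l) (s1 l l)))) (s0 (s1 (s0 (s1 l l) (s1 l l)) (s0 (s1 l l) (s1 l l))) (s1 (s0 (s1 l l) (s1 l l)) (s0 (s1 l l) (s1 l l))))))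
    (Bx.mk 281475236757504 8388608 281475169648640 8388608 281474991718400 15007744 281474976710656 0) = true := by
  decide +kernel

open Tr in
theorem tc34 : chk TK6f gsf (s1 (s0 (s1 (s0 l l) (s0 l (s1 l l))) (s1 (s0 (s1 l l) (s1 l l)) (s0 (s1 l l) (s1 l l)))) (s0 (s1 (s0 (s1 l l) (s1 l l)) (s0 (s1 l l) (s1 l l))) (s1 (s0 (s1 l l) (s1 (s0 l l) (s0 l l))) (s0 (s1 (s0 l l) (s0 l l)) (s1 (s0 l l) (s0 l l))))))
    (Bx.mk 281475219980288 8388608 281475161260032 16777216 281475021733888 15007744 281474976710656 0) = true := by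
  decide +kernel

end SF

end Vale.Agent.Lib.P154
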