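import Vale.Agent.Lib.P154.SF.Prog

/-! Generated certificates. -/

namespace Vale.Agent.Lib.P154

namespace SF

open Tr in
theorem tc53 : chk TK6f gsf (s1 (s0 (s1 (s0 (s1 l l) (s1 l l)) (s0 (s1 l l) (s1 l (s2 l l)))) (s1 (s0 (s1 l l) (s1 l l)) (s0 (s1 l (s0 l l)) (s1 l (s0 l l))))) (s0 (s1 (s0 (s1 (s0 l l) (s0 l l)) (s1 (s0 l l) (s0 l l))) (s0 (s1 (s0 l l) (s0 l l)) (s1 (s0 l l) (s0 l l)))) (s1 (s0 (s1 (s0 l l) (s0 l l)) (s1 (s0 l l) (s0 l l))) (s0 (s1 (s0 l l) (s0 l l)) (s1 (s0 l l) (s0 l l))))))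
    (Bx.mk 281475240951808 4194304 281475186425856 8388608 281474991718400 15007744 281474976710656 0) = true := by
  decide +kernel

open Tr in
theorem tc54 : chk TK6f gsf (s1 (s0 (d 1) (s1 (s0 (s1 (s0 (s0 (d 1) l) (s0 l l)) (d 1)) (s0 (s1 (s0 l l) (s0 (d 1) (s1 l (d 1)))) (s1 (s0 l l) (s1 (s0 l l) (d 1))))) (d 1))) (d 1))
    (Bx.mk 281475236757504 8388608 281475203203072 8388608 281474991718400 15007744 281474976710656 0) = true := by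
  decide +kernel

open Tr in
theorem tc55 : chk TK6f gsf (s1 (s0 (s1 (s0 (s1 l (s0 l l)) (s1 (s0 l l) (s0 l l))) (s1 (s0 (d 1) (s1 l (d 1))) (d 1))) (s1 (s0 (s1 (s0 l l) (s0 l (s1 l l))) (s1 (s0 l (s1 l l)) (s0 (s1 l l) (s1 l l)))) (s0 (s1 (s0 (s1 l (d 1)) (s1 l l)) (d 1)) (s1 (s0 (s1 l l) (s1 l l)) (s1 (s0 (d 1) l) (d 1)))))) (d 1))
    (Bx.mk 281475219980288 8388608 281475194814464 16777216 281475021733888 15007744 281474976710656 0) = true := by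
  decide +kernel

open Tr in
theorem tc56 : chk TK6f gsf (s1 (s0 (s1 (s0 (s1 l l) (s1 l l)) (s0 (s1 l l) (s1 l l))) (s1 (s0 (s1 l l) (s1 l l)) (s0 (s1 l l) (s1 l (s0 l l))))) (s0 (s1 (s0 (s1 l l) (s1 l l)) (s1 (s0 l (s0 l l)) (d 1))) (s1 (s0 (s1 (s2 l l) (s0 l l)) (s1 (s0 l l) (s0 l l))) (s0 (s1 (s0 l l) (s1 l (d 1))) (s1 (s0 l l) (s0 l l))))))
    (Bx.mk 281475232563200 4194304 281475186425856 8388608 281475021733888 15007744 281474976710656 0) = true := by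
  decide +kernel

open Tr in
theorem tc57 : chk TK6f gsf (s0 (s1 (s0 (s1 l l) (s1 l (s0 l l))) (s0 (s1 (s0 l l) (s0 l l)) (s1 (s0 l l) (s0 l l)))) (s1 (s0 (s1 (s2 l l) (s0 l l)) (s1 (s0 l l) (s0 l l))) (s0 (s1 (s0 l l) (s0 l l)) (s1 (s0 l l) (s0 l l)))))
    (Bx.mk 281475240951808 4194304 281475182231552 4194304 281475021733888 15007744 281474976710656 0) = true := by
  decide +kernel

open Tr in
theorem tc58 : chk TK6f gsf (s0 (s1 (s0 (s1 (s0 l l) (s0 l l)) (s1 (s0 l l) (s0 l l))) (s0 (s1 (s0 l l) (s0 l l)) (s1 (s0 l l) (s0 (s2 l l) (s1 l l))))) (s1 (s0 (s1 (s0 l l) (s0 l l)) (s1 (s0 l l) (s0 l l))) (s0 (s1 (s0 l l) (s0 (s1 l l) (s1 l l))) (s1 (s0 l l) (s0 (s1 l l) (s1 l l))))))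
    (Bx.mk 281475240951808 4194304 281475190620160 4194304 281475021733888 15007744 281474976710656 0) = true := by
  decide +kernel

end SF

end Vale.Agent.Lib.P154
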